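import Vale.Agent.P080.Defs
import Vale.Agent.P080.C1Final

namespace Vale.Agent.Results.P080.C1Alpha

open Vale.Agent.P080 Metric

theorem result :
    (∀ (d : ℕ) (Ω : Set (EuclideanSpace ℝ (Fin d))) (u : EuclideanSpace ℝ (Fin d) → ℝ),
      IsOpen Ω → IsInfinityHarmonicOn u Ω → ContDiffOn ℝ 1 u Ω) ∧
    (∀ d : ℕ, ∃ α C : ℝ, 0 < α ∧ 0 < C ∧
      ∀ (Ω : Set (EuclideanSpace ℝ (Fin d))) (u : EuclideanSpace ℝ (Fin d) → ℝ),
        IsOpen Ω → IsInfinityHarmonicOn u Ω →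
        ∀ (x₀ : EuclideanSpace ℝ (Fin d)) (ρ : ℝ), 0 < ρ → closedBall x₀ ρ ⊆ Ω →
          ∀ x ∈ closedBall x₀ (ρ / 2), ∀ y ∈ closedBall x₀ (ρ / 2),
            ‖gradient u x - gradient u y‖
              ≤ C * ((sSup (u '' closedBall x₀ ρ) - sInf (u '' closedBall x₀ ρ)) / ρ)
                * (‖x - y‖ / ρ) ^ α) := by
  refine ⟨fun d Ω u hΩ hu => contDiffOn_infinityHarmonic d Ω u hΩ hu, fun d => ?_⟩
  obtain ⟨α, C, hα, hC, h⟩ := gradient_estimate d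
  exact ⟨α, C, hα, hC, fun Ω u _ hu => h Ω u hu⟩

end Vale.Agent.Results.P080.C1Alpha
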