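import Vale.Agent.P080.Defs
import Vale.Agent.P080.C1Final

namespace Vale.Agent.Results.P080.GradientContinuous

open Vale.Agent.P080 Metric

theorem result (d : ℕ) (hd : 3 ≤ d) :
    (∀ (Ω : Set (EuclideanSpace ℝ (Fin d))) (u : EuclideanSpace ℝ (Fin d) → ℝ),
      IsOpen Ω → IsInfinityHarmonicOn u Ω →
        (∀ x ∈ Ω, DifferentiableAt ℝ u x) ∧ ContinuousOn (gradient u) Ω) ∧
    (¬ ∃ (Ω : Set (EuclideanSpace ℝ (Fin d))) (u : EuclideanSpace ℝ (Fin d) → ℝ)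
      (x : EuclideanSpace ℝ (Fin d)),
      IsOpen Ω ∧ IsInfinityHarmonicOn u Ω ∧ x ∈ Ω ∧ ¬ ContinuousAt (gradient u) x) ∧
    (∃ α C : ℝ, 0 < α ∧ 0 < C ∧
      ∀ (Ω : Set (EuclideanSpace ℝ (Fin d))) (u : EuclideanSpace ℝ (Fin d) → ℝ),
        IsOpen Ω → IsInfinityHarmonicOn u Ω →
        ∀ (x₀ : EuclideanSpace ℝ (Fin d)) (r M : ℝ), 0 < r → closedBall x₀ (2 * r) ⊆ Ω →
          (∀ y ∈ closedBall x₀ (2 * r), ∀ z ∈ closedBall x₀ (2 * r), u y - u z ≤ M) →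
          ∀ x ∈ closedBall x₀ r, ∀ y ∈ closedBall x₀ r,
            ‖gradient u x - gradient u y‖ ≤ C * (M / r) * (‖x - y‖ / r) ^ α) := by
  refine ⟨fun Ω u hΩ hu => gradient_continuous d Ω u hΩ hu, ?_, gradient_estimate' d⟩
  rintro ⟨Ω, u, x, hΩ, hu, hx, hcont⟩
  exact hcont ((gradient_continuous d Ω u hΩ hu).2.continuousAt (hΩ.mem_nhds hx))

end Vale.Agent.Results.P080.GradientContinuous
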