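import Vale.Agent.P080.Defs
import Vale.Agent.P080.Flatness

namespace Vale.Agent.Results.P080.LiouvilleFlatness

open Vale.Agent.P080 Metric Set Filter
open scoped RealInnerProductSpace

theorem result (d : ℕ) :
    (∀ u : EuclideanSpace ℝ (Fin d) → ℝ, IsInfinityHarmonicOn u univ →
      ∀ C : ℝ, (∃ᶠ R in atTop, ∀ x ∈ closedBall (0 : EuclideanSpace ℝ (Fin d)) R, u x ≤ C * R) →
        ∃ (p : EuclideanSpace ℝ (Fin d)) (c : ℝ), ∀ x, u x = ⟪p, x⟫ + c) ∧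
    (∀ ε : ℝ, 0 < ε → ∃ δ : ℝ, 0 < δ ∧
      ∀ (u : EuclideanSpace ℝ (Fin d) → ℝ) (Ω : Set (EuclideanSpace ℝ (Fin d))),
        IsInfinityHarmonicOn u Ω →
        ∀ (x : EuclideanSpace ℝ (Fin d)) (ρ M : ℝ), 0 < ρ → closedBall x ρ ⊆ Ω →
          (∀ y ∈ closedBall x ρ, ∀ z ∈ closedBall x ρ, u y - u z ≤ M) →
          ∀ r : ℝ, 0 < r → r ≤ δ * ρ →
            ∃ p : EuclideanSpace ℝ (Fin d),
              ∀ y ∈ closedBall x r, |u y - u x - ⟪p, y - x⟫| ≤ ε * (M / ρ) * r) :=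
  ⟨fun _ hu _ hC => liouville hu hC, fun _ hε => flatness d hε⟩

end Vale.Agent.Results.P080.LiouvilleFlatness
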