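import Vale.Agent.P080.Defs
import Vale.Agent.P080.Global

namespace Vale.Agent.Results.P080.OneSidedBallC1

open Vale.Agent.P080 Metric

theorem result {d : ℕ} {u : EuclideanSpace ℝ (Fin d) → ℝ}
    {Ω : Set (EuclideanSpace ℝ (Fin d))} (hΩ : IsOpen Ω) (hu : IsInfinityHarmonicOn u Ω) :
    (∀ x₀ ∈ Ω, DifferentiableAt ℝ u x₀ →
      (∀ C : ℝ, 0 < C → ∃ r : ℝ, 0 < r ∧
        ∀ x ∈ ball x₀ r, TouchedByBall u (ball x₀ r) x (C * dist x x₀)) →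
      ContinuousAt (fderiv ℝ u) x₀) ∧
    ((∀ x₀ ∈ Ω, ∃ r : ℝ, 0 < r ∧ ∃ ρ : ℝ, 0 < ρ ∧
        ∀ x ∈ ball x₀ r, TouchedByBall u (ball x₀ r) x ρ) →
      ContDiffOn ℝ 1 u Ω) ∧
    ((∀ x₀ ∈ Ω, ∃ r : ℝ, 0 < r ∧
        (QuasiconcaveOn ℝ (ball x₀ r) u ∨ QuasiconvexOn ℝ (ball x₀ r) u)) →
      ContDiffOn ℝ 1 u Ω) :=
  ⟨fun _ hx₀ hd ht => pointwise_criterion hu hΩ hx₀ hd ht,
    fun h => global_of_ball hu hΩ h, fun h => global_of_quasi hu hΩ h⟩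

end Vale.Agent.Results.P080.OneSidedBallC1
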